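import Vale.Agent.Lib.P197Z.Final
import Vale.Agent.Lib.P197.Staircase

/-!
# P197: Saxl's conjecture for all staircases

`S^μ` is the left ideal of `ℂ[S_n]` generated by the Young symmetrizer of a filling of `μ`;
`kronecker T₁ T₂ T₃` is the dimension of the space of `S_n`-equivariant maps
`S^ν → S^λ ⊗ S^μ` in `FDRep ℂ (S_n)`.

For every `m` and every Young diagram `ν` with `n = N_m = m (m + 1) / 2` boxes, fillings exist and
for all fillings the Kronecker coefficient `g(ρ_m, ρ_m, ν)` is positive.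
-/

open Vale.Agent.Lib.P197

namespace Vale.Agent.Results.P197.A00000_saxl_all

theorem result : ∀ m : ℕ, ∀ ν : YoungDiagram, ν.card = m * (m + 1) / 2 →
    (staircase m).card = m * (m + 1) / 2 ∧
    Nonempty (Filling (m * (m + 1) / 2) (staircase m)) ∧
    Nonempty (Filling (m * (m + 1) / 2) ν) ∧
    ∀ (T₁ T₂ : Filling (m * (m + 1) / 2) (staircase m)) (T₃ : Filling (m * (m + 1) / 2) ν),
      0 < kronecker T₁ T₂ T₃ := by
  intro m ν hν
  have hfill : ∀ (μ : YoungDiagram), μ.card = m * (m + 1) / 2 →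
      Nonempty (Filling (m * (m + 1) / 2) μ) := by
    intro μ hμ
    refine ⟨(Fintype.equivOfCardEq ?_)⟩
    simp only [Fintype.card_fin, Fintype.card_coe]
    exact hμ.symm
  exact ⟨staircase_card m, hfill _ (staircase_card m), hfill _ hν, fun T₁ T₂ T₃ =>
    kronecker_pos T₁ T₂ T₃ (Vale.Agent.Lib.P197Z.saxl_all m ν hν T₁ T₂ T₃)⟩

end Vale.Agent.Results.P197.A00000_saxl_all
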