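import Vale.Agent.Lib.P197T.FinalT

/-!
# P197: the tensor square conjecture for all large `n`

`S^μ` is the left ideal of `ℂ[S_n]` generated by the Young symmetrizer of a filling of `μ`;
`kronecker T₁ T₂ T₃` is the dimension of the space of `S_n`-equivariant maps
`S^ν → S^λ ⊗ S^μ` in `FDRep ℂ (S_n)`.

There is `n₀` such that for all `n ≥ n₀` there is a self conjugate Young diagram `la` with `n` boxes
such that for every Young diagram `ν` with `n` boxes, fillings exist and for all fillings the
Kronecker coefficient `g(la, la, ν)` is positive.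
-/

open Vale.Agent.Lib.P197

namespace Vale.Agent.Results.P197.A00000_tensor_square

theorem result : ∃ n₀ : ℕ, ∀ n ≥ n₀, ∃ la : YoungDiagram, la.card = n ∧ la.transpose = la ∧
    Nonempty (Filling n la) ∧ ∀ ν : YoungDiagram, ν.card = n →
      Nonempty (Filling n ν) ∧
      ∀ (T₁ T₂ : Filling n la) (T₃ : Filling n ν), 0 < kronecker T₁ T₂ T₃ := by
  obtain ⟨n₀, h⟩ := Vale.Agent.Lib.P197T.tensor_of_base Vale.Agent.Lib.P197T.balancedT
  refine ⟨n₀, fun n hn => ?_⟩
  obtain ⟨la, h1, h2, h3⟩ := h n hn
  exact ⟨la, h1, h2, Vale.Agent.Lib.P197X.exists_filling n la h1, fun ν hν =>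
    ⟨Vale.Agent.Lib.P197X.exists_filling n ν hν, h3 ν hν⟩⟩

end Vale.Agent.Results.P197.A00000_tensor_square
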