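import Vale.Agent.Lib.P197X.Saxl
import Vale.Agent.Lib.P197.Staircase

/-!
# P197: Saxl's conjecture for all large staircases

`S^μ` is the left ideal of `ℂ[S_n]` generated by the Young symmetrizer of a filling of `μ`;
`kronecker T₁ T₂ T₃` is the dimension of the space of `S_n`-equivariant maps
`S^ν → S^λ ⊗ S^μ` in `FDRep ℂ (S_n)`.

There is `m₁` such that for all `m ≥ m₁` and every Young diagram `ν` with `n = N_m = m (m + 1) / 2`
boxes, fillings exist and for all fillings the Kronecker coefficient `g(ρ_m, ρ_m, ν)` is positive.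
-/

open Vale.Agent.Lib.P197

namespace Vale.Agent.Results.P197.A0000_saxl_large

theorem result : ∃ m₁ : ℕ, ∀ m ≥ m₁, ∀ ν : YoungDiagram, ν.card = m * (m + 1) / 2 →
    (staircase m).card = m * (m + 1) / 2 ∧
    Nonempty (Filling (m * (m + 1) / 2) (staircase m)) ∧
    Nonempty (Filling (m * (m + 1) / 2) ν) ∧
    ∀ (T₁ T₂ : Filling (m * (m + 1) / 2) (staircase m)) (T₃ : Filling (m * (m + 1) / 2) ν),
      0 < kronecker T₁ T₂ T₃ := by
  obtain ⟨m₁, h⟩ := Vale.Agent.Lib.P197X.saxl_large
  refine ⟨m₁, fun m hm ν hν => ?_⟩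
  have hfill : ∀ (μ : YoungDiagram), μ.card = m * (m + 1) / 2 →
      Nonempty (Filling (m * (m + 1) / 2) μ) := by
    intro μ hμ
    refine ⟨(Fintype.equivOfCardEq ?_)⟩
    simp only [Fintype.card_fin, Fintype.card_coe]
    exact hμ.symm
  exact ⟨staircase_card m, hfill _ (staircase_card m), hfill _ hν, h m hm ν hν⟩

end Vale.Agent.Results.P197.A0000_saxl_large
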