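import Vale.Agent.Lib.P197X.Saxl
import Vale.Agent.Lib.P197.Staircase

/-!
# P197: Saxl's conjecture for diagrams with a bounded Durfee square: an explicit threshold

`S^μ` is the left ideal of `ℂ[S_n]` generated by the Young symmetrizer of a filling of `μ`;
`kronecker T₁ T₂ T₃` is the dimension of the space of `S_n`-equivariant maps
`S^ν → S^λ ⊗ S^μ` in `FDRep ℂ (S_n)`.

For all `D`, `m` with `m ≥ 10^6 (D+1)^3` and every Young diagram `ν` with `N_m` boxes
whose Durfee square has side at most `D` (that is `(D, D)` is not a cell of `ν`), the Kronecker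
coefficient `g(ρ_m, ρ_m, ν)` is positive.
-/

open Vale.Agent.Lib.P197

namespace Vale.Agent.Results.P197.A0001_bounded_square

theorem result (D m : ℕ) (hm : 10 ^ 6 * (D + 1) ^ 3 ≤ m) (ν : YoungDiagram)
    (hν : ν.card = m * (m + 1) / 2) (hD : (D, D) ∉ ν) :
    (staircase m).card = m * (m + 1) / 2 ∧
    Nonempty (Filling (m * (m + 1) / 2) (staircase m)) ∧
    Nonempty (Filling (m * (m + 1) / 2) ν) ∧
    ∀ (T₁ T₂ : Filling (m * (m + 1) / 2) (staircase m)) (T₃ : Filling (m * (m + 1) / 2) ν),
      0 < kronecker T₁ T₂ T₃ := by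
  have hfill : ∀ (μ : YoungDiagram), μ.card = m * (m + 1) / 2 →
      Nonempty (Filling (m * (m + 1) / 2) μ) := by
    intro μ hμ
    refine ⟨(Fintype.equivOfCardEq ?_)⟩
    simp only [Fintype.card_fin, Fintype.card_coe]
    exact hμ.symm
  exact ⟨staircase_card m, hfill _ (staircase_card m), hfill _ hν,
    fun T₁ T₂ T₃ => Vale.Agent.Lib.P197X.saxl_bounded_square D m hm ν hν hD T₁ T₂ T₃⟩

end Vale.Agent.Results.P197.A0001_bounded_square
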