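import Vale.Agent.Lib.P197W.Final

/-!
# P197: the tensor square of the staircase contains every Specht module whose part outside the
first row and the first column is balanced

`S^μ` is the left ideal of `ℂ[S_n]` generated by the Young symmetrizer of a filling of `μ`;
`kronecker T₁ T₂ T₃` is the dimension of the space of `S_n`-equivariant maps
`S^ν → S^λ ⊗ S^μ` in `FDRep ℂ (S_n)`.  `coreSize ν` is the number of cells `(i, j)` of `ν` with
`1 ≤ i` and `1 ≤ j`, that is the cells outside the first row and the first column.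

There is `N₀` such that for all `m` and every Young diagram `ν` with `m (m + 1) / 2` boxes: if
`s = coreSize ν ≥ N₀` and the second row and the second column of `ν` have at most `s^(11/20) / 2`
boxes, then fillings exist and for all fillings the Kronecker coefficient `g(ρ_m, ρ_m, ν)` is
positive.  The first row and the first column are arbitrary.
-/

open Vale.Agent.Lib.P197 Vale.Agent.Lib.P197W

namespace Vale.Agent.Results.P197.A000_hook_core

theorem result : ∃ N₀ : ℕ, ∀ (m : ℕ) (ν : YoungDiagram), ν.card = m * (m + 1) / 2 →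
    N₀ ≤ coreSize ν →
    (ν.rowLen 1 : ℝ) ≤ (1 / 2) * (coreSize ν : ℝ) ^ (11 / 20 : ℝ) →
    (ν.colLen 1 : ℝ) ≤ (1 / 2) * (coreSize ν : ℝ) ^ (11 / 20 : ℝ) →
    (staircase m).card = m * (m + 1) / 2 ∧
    Nonempty (Filling (m * (m + 1) / 2) (staircase m)) ∧
    Nonempty (Filling (m * (m + 1) / 2) ν) ∧
    ∀ (T₁ T₂ : Filling (m * (m + 1) / 2) (staircase m)) (T₃ : Filling (m * (m + 1) / 2) ν),
      0 < kronecker T₁ T₂ T₃ := by
  obtain ⟨N₀, h⟩ := hook_core_kronecker
  refine ⟨N₀, fun m ν hν hN hr hc => ?_⟩
  have hfill : ∀ (μ : YoungDiagram), μ.card = m * (m + 1) / 2 →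
      Nonempty (Filling (m * (m + 1) / 2) μ) := by
    intro μ hμ
    refine ⟨(Fintype.equivOfCardEq ?_)⟩
    simp only [Fintype.card_fin, Fintype.card_coe]
    exact hμ.symm
  exact ⟨staircase_card m, hfill _ (staircase_card m), hfill _ hν, h m ν hν hN hr hc⟩

end Vale.Agent.Results.P197.A000_hook_core
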