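import Vale.Agent.Lib.P197S.FinalS
import Vale.Agent.Lib.P197.Staircase

/-!
# P197: the tensor square of the staircase contains every Specht module with at most
`n^(1/2 + δ)` rows and columns

`S^μ` is the left ideal of `ℂ[S_n]` generated by the Young symmetrizer of a filling of `μ`;
`kronecker T₁ T₂ T₃` is the dimension of the space of `S_n`-equivariant maps
`S^ν → S^λ ⊗ S^μ` in `FDRep ℂ (S_n)`.

There are `δ > 0` and `m₀` such that for all `m ≥ m₀` and every Young diagram `ν` with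
`n = m (m + 1) / 2` boxes, at most `n^(1/2 + δ)` boxes in its first row and at most `n^(1/2 + δ)`
boxes in its first column, fillings exist and for all fillings the Kronecker coefficient
`g(ρ_m, ρ_m, ν)` is positive.
-/

open Vale.Agent.Lib.P197

namespace Vale.Agent.Results.P197.A0_polyrange

theorem result : ∃ δ : ℝ, 0 < δ ∧ ∃ m₀ : ℕ, ∀ m ≥ m₀, ∀ ν : YoungDiagram,
    ν.card = m * (m + 1) / 2 →
    (ν.rowLen 0 : ℝ) ≤ ((m * (m + 1) / 2 : ℕ) : ℝ) ^ (1 / 2 + δ) →
    (ν.colLen 0 : ℝ) ≤ ((m * (m + 1) / 2 : ℕ) : ℝ) ^ (1 / 2 + δ) →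
    (staircase m).card = m * (m + 1) / 2 ∧
    Nonempty (Filling (m * (m + 1) / 2) (staircase m)) ∧
    Nonempty (Filling (m * (m + 1) / 2) ν) ∧
    ∀ (T₁ T₂ : Filling (m * (m + 1) / 2) (staircase m)) (T₃ : Filling (m * (m + 1) / 2) ν),
      0 < kronecker T₁ T₂ T₃ := by
  obtain ⟨m₀, h⟩ := Vale.Agent.Lib.P197S.balanced_plus
  refine ⟨Vale.Agent.Lib.P197S.dlt, Vale.Agent.Lib.P197S.dlt_pos, m₀, fun m hm ν hν hr hc => ?_⟩
  have hfill : ∀ (μ : YoungDiagram), μ.card = m * (m + 1) / 2 →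
      Nonempty (Filling (m * (m + 1) / 2) μ) := by
    intro μ hμ
    refine ⟨(Fintype.equivOfCardEq ?_)⟩
    simp only [Fintype.card_fin, Fintype.card_coe]
    exact hμ.symm
  exact ⟨staircase_card m, hfill _ (staircase_card m), hfill _ hν, h m hm ν hν hr hc⟩

end Vale.Agent.Results.P197.A0_polyrange
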